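import Vale.Agent.Lib.P235.Main

/-!
# Elimination rounds preserve bounded `L_1` distortion

If `k` rounds of deleting at most one vertex from every connected component of the remaining graph
leave a graph all of whose shortest-path metrics embed into `L_1` with distortion at most `K`, then
all shortest-path metrics of the original graph embed with distortion at most `600 (K + k)`.
Forests have `K = 1`, so the graphs which `k` such rounds turn into forests (in particular forests
with `k` additional apex vertices) satisfy the Gupta-Newman-Rabinovich-Sinclair conjecture.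
-/

namespace Vale.Agent.Results.P235.Elimination

open Vale.Agent.Lib.P235

universe u

theorem elim_apex {V : Type u} [DecidableEq V] (G : SimpleGraph V) (A : Finset V) :
    Elim G A.card ((A : Set V)ᶜ) := by
  induction A using Finset.induction_on with
  | empty =>
    rw [Finset.card_empty, Finset.coe_empty, Set.compl_empty]
    exact Elim.start
  | insert a A ha ih =>
    rw [Finset.card_insert_of_notMem ha]
    have h : ((insert a A : Finset V) : Set V)ᶜ = (A : Set V)ᶜ \ {a} := by
      ext z
      simp only [Finset.coe_insert, Set.mem_compl_iff, Set.mem_insert_iff, Finset.mem_coe,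
        Set.mem_sdiff, Set.mem_singleton_iff]
      tauto
    rw [h]
    refine Elim.round ih {a} ?_ ?_
    · intro z hz
      rw [Set.mem_singleton_iff] at hz
      subst hz
      exact ha
    · intro x hx y hy _
      rw [Set.mem_singleton_iff] at hx hy
      rw [hx, hy]

/-- **Main theorem.**
(1) elimination rounds: `c_1(G) ≤ 600 (K + k)` if `k` rounds lead to a graph with `c_1 ≤ K`;
(2) unconditional: `c_1(G) ≤ 600 (1 + k)` if `k` rounds lead to a forest;
(3) `c_1(G) ≤ 600 (1 + |A|)` if deleting the vertex set `A` leaves a forest;
(4) if `c_1 ≤ K` on a family `F` of graphs, then `c_1(G) ≤ 600 (K + |A|)` for every connected graph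
`G` such that deleting the vertex set `A` leaves a graph of `F`. -/
theorem result :
    (∀ (V : Type u) [Fintype V] (G : SimpleGraph V), G.Connected →
      ∀ (k : ℕ) (S : Set V), Elim G k S → ∀ K : ℝ, 1 ≤ K → L1Bound (keep G S) K →
        L1Bound G (600 * (K + k))) ∧
    (∀ (V : Type u) [Fintype V] (G : SimpleGraph V), G.Connected →
      ∀ (k : ℕ) (S : Set V), Elim G k S → (keep G S).IsAcyclic → L1Bound G (600 * (1 + k))) ∧
    (∀ (V : Type u) [Fintype V] (G : SimpleGraph V), G.Connected →
      ∀ A : Finset V, (keep G ((A : Set V)ᶜ)).IsAcyclic → L1Bound G (600 * (1 + A.card))) ∧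
    (∀ (F : ∀ V : Type u, SimpleGraph V → Prop) (K : ℝ), 1 ≤ K →
      (∀ (V : Type u) [Fintype V] (H : SimpleGraph V), F V H → L1Bound H K) →
      ∀ (V : Type u) [Fintype V] (G : SimpleGraph V), G.Connected →
        ∀ A : Finset V, F V (keep G ((A : Set V)ᶜ)) → L1Bound G (600 * (K + A.card))) := by
  classical
  refine ⟨?_, ?_, ?_, ?_⟩
  · intro V _ G hc k S h K hK hL
    exact main_bound hc h hK hL
  · intro V _ G hc k S h hac
    exact main_bound hc h le_rfl (forest_bound _ hac)
  · intro V _ G hc A hac
    exact main_bound hc (elim_apex G A) le_rfl (forest_bound _ hac)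
  · intro F K hK hF V _ G hc A hA
    exact main_bound hc (elim_apex G A) hK (hF V _ hA)

end Vale.Agent.Results.P235.Elimination
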