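import Vale.Agent.Lib.P235.Apex
import Vale.Agent.Lib.P235.Glue

/-!
# Bounded 2-treedepth implies bounded `L_1` distortion

The 2-treedepth of a graph is at most `k + 1` exactly when the graph can be built from single
vertices by gluing along at most one vertex (any number of times) and at most `k` nested additions
of an apex vertex. We prove `c_1(G) ≤ 600 ^ k` for these graphs. By the structure theorem of Huynh,
Joret, Micek, Seweryn and Wollan (Excluding a ladder, 2022) a minor-closed family has bounded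
2-treedepth if and only if it does not contain all ladders.
-/

namespace Vale.Agent.Results.P235.TwoTreedepth

open Vale.Agent.Lib.P235

universe u

/-- `Tower G P k S`: the induced subgraph `G[S]` is built from induced subgraphs `G[S']` with `P S'`
by gluing along at most one vertex (including disjoint unions) and at most `k` nested additions of
an apex vertex. -/
inductive Tower {V : Type u} (G : SimpleGraph V) (P : Set V → Prop) : ℕ → Set V → Prop
  | base {k : ℕ} {S : Set V} (h : P S) : Tower G P k S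
  | apex {k : ℕ} {S : Set V} (v : V) (h : Tower G P k (S \ {v})) : Tower G P (k + 1) S
  | glue {k : ℕ} {A B : Set V} (hA : Tower G P k A) (hB : Tower G P k B)
      (hAB : (A ∩ B).Subsingleton)
      (hno : ∀ a ∈ A, a ∉ B → ∀ b ∈ B, b ∉ A → ¬ G.Adj a b) : Tower G P k (A ∪ B)

/-- The 2-treedepth of `G` is at most `k + 1`: the base graphs are single vertices. -/
def TwoTreedepthLE {V : Type u} (G : SimpleGraph V) (k : ℕ) : Prop :=
  Tower G (fun S => S.Subsingleton) k Set.univ

theorem L1Bound_mono {V : Type u} {G : SimpleGraph V} {C C' : ℝ} (h : C ≤ C') (hL : L1Bound G C) :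
    L1Bound G C' := by
  intro w hw
  obtain ⟨N, f, hf⟩ := hL w hw
  refine ⟨N, f, fun x y hxy => ⟨(hf x y hxy).1, (hf x y hxy).2.trans ?_⟩⟩
  exact mul_le_mul_of_nonneg_right h (wd_nonneg hw x y)

theorem keep_keep {V : Type u} (G : SimpleGraph V) (S : Set V) (v : V) :
    keep (keep G S) {v}ᶜ = keep G (S \ {v}) := by
  ext a b
  constructor
  · rintro ⟨⟨h1, h2, h3⟩, h4, h5⟩
    exact ⟨h1, ⟨h2, h4⟩, ⟨h3, h5⟩⟩
  · rintro ⟨h1, ⟨h2, h4⟩, ⟨h3, h5⟩⟩
    exact ⟨⟨h1, h2, h3⟩, h4, h5⟩

theorem keep_univ {V : Type u} (G : SimpleGraph V) : keep G Set.univ = G := by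
  ext a b
  exact ⟨fun h => h.1, fun h => ⟨h, Set.mem_univ _, Set.mem_univ _⟩⟩

theorem tower_bound {V : Type u} [Fintype V] {G : SimpleGraph V} {P : Set V → Prop} {K : ℝ}
    (hK : 1 ≤ K) (hP : ∀ S, P S → L1Bound (keep G S) K) {k : ℕ} {S : Set V}
    (h : Tower G P k S) : L1Bound (keep G S) (600 ^ k * K) := by
  induction h with
  | @base k S h =>
    apply L1Bound_mono _ (hP S h)
    have : (1:ℝ) ≤ 600 ^ k := one_le_pow₀ (by norm_num)
    nlinarith
  | @apex k S v h ih =>
    rw [← keep_keep] at ih
    have h1 : (1:ℝ) ≤ 600 ^ k * K := by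
      have : (1:ℝ) ≤ 600 ^ k := one_le_pow₀ (by norm_num)
      nlinarith
    have h2 := apex_bound (keep G S) v h1 ih
    rw [pow_succ, mul_comm ((600:ℝ) ^ k) 600, mul_assoc]
    exact h2
  | @glue k A B hA hB hAB hno ihA ihB =>
    exact glue_bound hAB hno ihA ihB

theorem subsingleton_bound {V : Type u} (G : SimpleGraph V) (S : Set V) (hS : S.Subsingleton) :
    L1Bound (keep G S) 1 := by
  intro w hw
  refine ⟨0, fun _ => Fin.elim0, fun x y hxy => ?_⟩
  have hxy' : x = y := by
    obtain ⟨p⟩ := hxy
    cases p with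
    | nil => rfl
    | cons h p => exact absurd (hS h.2.1 h.2.2) h.1.ne
  subst hxy'
  rw [wd_self hw]
  simp

/-- **Main theorem.**
(1) If the 2-treedepth of `G` is at most `k + 1`, then `c_1(G) ≤ 600 ^ k`.
(2) If `c_1(G[S]) ≤ K` whenever `P S`, and `G[S]` is obtained from such base graphs by gluing along
at most one vertex and at most `k` nested additions of an apex, then `c_1(G[S]) ≤ 600 ^ k * K`.
(3) One apex vertex costs a factor `600` only: `c_1(G) ≤ 600 c_1(G - v)`. -/
theorem result :
    (∀ (V : Type u) [Fintype V] (G : SimpleGraph V) (k : ℕ), TwoTreedepthLE G k →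
      L1Bound G (600 ^ k)) ∧
    (∀ (V : Type u) [Fintype V] (G : SimpleGraph V) (P : Set V → Prop) (K : ℝ), 1 ≤ K →
      (∀ S, P S → L1Bound (keep G S) K) → ∀ (k : ℕ) (S : Set V), Tower G P k S →
        L1Bound (keep G S) (600 ^ k * K)) ∧
    (∀ (V : Type u) [Fintype V] (G : SimpleGraph V) (v : V) (K : ℝ), 1 ≤ K →
      L1Bound (keep G {v}ᶜ) K → L1Bound G (600 * K)) := by
  refine ⟨?_, ?_, ?_⟩
  · intro V _ G k h
    have h1 := tower_bound (G := G) (P := fun S => S.Subsingleton) (K := 1) le_rfl
      (fun S hS => subsingleton_bound G S hS) h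
    rw [keep_univ, mul_one] at h1
    exact h1
  · intro V _ G P K hK hP k S h
    exact tower_bound hK hP h
  · intro V _ G v K hK hL
    exact apex_bound G v hK hL

end Vale.Agent.Results.P235.TwoTreedepth
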